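import Vale.Agent.P037.Main

namespace Vale.Agent.Results.P037.Disproof

open Vale.Agent.P037

/-- The polynomial ordered binary matrix-removal conjecture is false; moreover a fixed `13 × 13`
pattern has hosts, of arbitrarily large size, at distance `ε = 1 / (67 (d + 1)) ^ 2` from freeness
with copy density at most `2 ^ (-d)`. -/
theorem result :
    (¬ ∀ (k : ℕ), 1 ≤ k → ∀ H : Matrix (Fin k) (Fin k) (Fin 2),
        ∃ c C : ℝ, 0 < c ∧ 0 < C ∧
          ∀ n : ℕ, 1 ≤ n → ∀ ε : ℝ, 0 < ε → ε < 1 →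
            ∀ A : Matrix (Fin n) (Fin n) (Fin 2), ε ≤ distFree H A →
              c * ε ^ C * (n : ℝ) ^ (2 * k) ≤ (numCopies H A : ℝ)) ∧
    ∃ H : Matrix (Fin 13) (Fin 13) (Fin 2), ∀ d t n : ℕ, 1 ≤ t → n = 67 * (d + 1) * (2 ^ d * t) →
      ∃ A : Matrix (Fin n) (Fin n) (Fin 2),
        1 / (67 * ((d : ℝ) + 1)) ^ 2 ≤ distFree H A ∧
        (numCopies H A : ℝ) ≤ (n : ℝ) ^ 26 / 2 ^ d := by
  refine ⟨fun h => not_poly (h 13 (by norm_num) HH), HH, ?_⟩
  rintro d t n ht rfl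
  exact quant d t ht

end Vale.Agent.Results.P037.Disproof
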